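import Vale.Agent.Lib.P161.Defs

open MeasureTheory

namespace Vale.Agent.Lib.P161

/-- Exchanging the two indices of a doubly indexed product measure. -/
theorem infinitePi_map_flip {ι κ X : Type*} [MeasurableSpace X] (μ : ι → κ → Measure X)
    [∀ i j, IsProbabilityMeasure (μ i j)] :
    (Measure.infinitePi fun i => Measure.infinitePi fun j => μ i j).map (fun w j i => w i j)
      = Measure.infinitePi fun j => Measure.infinitePi fun i => μ i j := by
  rw [← Measure.infinitePi_map_curry μ, ← Measure.infinitePi_map_curry (fun j i => μ i j)]
  have h := Measure.infinitePi_map_piCongrLeft (X := fun _ : κ × ι => X)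
    (fun q : κ × ι => μ q.2 q.1) (Equiv.prodComm ι κ)
  rw [← h]
  rw [Measure.map_map (by fun_prop) (by fun_prop), Measure.map_map (by fun_prop) (by fun_prop)]
  congr 1

/-- One uniform label can be split into two independent uniform labels. -/
theorem exists_split : ∃ s : unitInterval → Bool → unitInterval, Measurable s ∧
    (volume : Measure unitInterval).map s
      = Measure.infinitePi (fun _ : Bool => (volume : Measure unitInterval)) :=
  Measure.exists_measurable_map_eq _

/-- Splitting every label gives two independent copies of the label field. -/
theorem split_law {V : Type} {s : unitInterval → Bool → unitInterval} (hs : Measurable s)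
    (hlaw : (volume : Measure unitInterval).map s
      = Measure.infinitePi (fun _ : Bool => (volume : Measure unitInterval))) :
    (labelLaw V).map (fun (U : V → unitInterval) (b : Bool) (v : V) => s (U v) b)
      = Measure.infinitePi (fun _ : Bool => labelLaw V) := by
  have hm : Measurable (fun (U : V → unitInterval) (v : V) => s (U v)) :=
    measurable_pi_lambda _ (fun v => hs.comp (measurable_pi_apply v))
  have h1 : (labelLaw V).map (fun (U : V → unitInterval) (v : V) => s (U v))
      = Measure.infinitePi (fun _ : V =>
          Measure.infinitePi (fun _ : Bool => (volume : Measure unitInterval))) := by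
    unfold labelLaw
    rw [Measure.infinitePi_map_pi _ (fun _ => hs)]
    simp only [hlaw]
  have h2 := infinitePi_map_flip (fun (_ : V) (_ : Bool) => (volume : Measure unitInterval))
  rw [← h1, Measure.map_map (by fun_prop) hm] at h2
  exact h2

theorem bern_true (p : ℝ) : bern p {true} = ENNReal.ofReal p := by
  unfold bern
  simp

theorem bern_false (p : ℝ) : bern p {false} = ENNReal.ofReal (1 - p) := by
  unfold bern
  simp

/-- The product of two independent spins: agreement probabilities combine. -/
theorem bern_mul {p q : ℝ} (hp : 0 ≤ p ∧ p ≤ 1) (hq : 0 ≤ q ∧ q ≤ 1) :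
    (Measure.infinitePi (fun b : Bool => bern (bif b then p else q))).map
        (fun c : Bool → Bool => c true == c false)
      = bern (p * q + (1 - p) * (1 - q)) := by
  have : ∀ b : Bool, IsProbabilityMeasure (bern (bif b then p else q)) := by
    intro b
    cases b
    · exact bern_prob q hq
    · exact bern_prob p hp
  apply Measure.ext_of_singleton
  intro a
  rw [Measure.map_apply Measurable.of_discrete (measurableSet_singleton a)]
  cases a with
  | true =>
    have hpre : (fun c : Bool → Bool => c true == c false) ⁻¹' {true}
        = {fun _ => true} ∪ {fun _ => false} := by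
      ext c
      simp only [Set.mem_preimage, Set.mem_singleton_iff, Set.mem_union, beq_iff_eq]
      constructor
      · intro h
        cases hc : c true
        · right
          funext b
          cases b
          · rw [← h, hc]
          · exact hc
        · left
          funext b
          cases b
          · rw [← h, hc]
          · exact hc
      · rintro (h | h) <;> rw [h]
    rw [hpre, measure_union (by simp [funext_iff]) (measurableSet_singleton _),
      Measure.infinitePi_singleton_of_fintype, Measure.infinitePi_singleton_of_fintype,
      Fintype.prod_bool, Fintype.prod_bool, bern_true]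
    simp only [cond_true, cond_false, bern_true, bern_false]
    rw [← ENNReal.ofReal_mul hp.1, ← ENNReal.ofReal_mul (by linarith [hp.2]),
      ← ENNReal.ofReal_add (mul_nonneg hp.1 hq.1)
        (mul_nonneg (by linarith [hp.2]) (by linarith [hq.2]))]
  | false =>
    have hpre : (fun c : Bool → Bool => c true == c false) ⁻¹' {false}
        = {fun b => b} ∪ {fun b => !b} := by
      ext c
      simp only [Set.mem_preimage, Set.mem_singleton_iff, Set.mem_union, beq_eq_false_iff_ne,
        ne_eq]
      constructor
      · intro h
        cases hc : c true
        · right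
          funext b
          cases b
          · cases hc' : c false
            · exact absurd (hc.trans hc'.symm) h
            · rfl
          · exact hc
        · left
          funext b
          cases b
          · cases hc' : c false
            · rfl
            · exact absurd (hc.trans hc'.symm) h
          · exact hc
      · rintro (h | h) <;> rw [h] <;> simp
    rw [hpre, measure_union (by simp [funext_iff]) (measurableSet_singleton _),
      Measure.infinitePi_singleton_of_fintype, Measure.infinitePi_singleton_of_fintype,
      Fintype.prod_bool, Fintype.prod_bool, bern_false]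
    simp only [cond_true, cond_false, bern_true, bern_false, Bool.not_true, Bool.not_false]
    rw [← ENNReal.ofReal_mul hp.1, ← ENNReal.ofReal_mul (by linarith [hp.2]),
      ← ENNReal.ofReal_add (mul_nonneg hp.1 (by linarith [hq.2]))
        (mul_nonneg (by linarith [hp.2]) hq.1)]
    congr 1
    ring

theorem increments_mul {V : Type} (G : SimpleGraph V) (o : V) (σ ξ : V → Bool)
    (j : Option G.edgeSet) :
    increments G o (fun v => σ v == ξ v) j = (increments G o σ j == increments G o ξ j) := by
  cases j with
  | none => rfl
  | some e =>
    obtain ⟨e, he⟩ := e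
    show agree (fun v => σ v == ξ v) e = (agree σ e == agree ξ e)
    induction e using Sym2.ind with
    | _ u v =>
      show ((σ u == ξ u) == (σ v == ξ v)) = ((σ u == σ v) == (ξ u == ξ v))
      cases σ u <;> cases ξ u <;> cases σ v <;> cases ξ v <;> rfl

theorem incrLaw_prob {V : Type} (G : SimpleGraph V) {θ : ℝ} (h : -1 ≤ θ ∧ θ ≤ 1)
    (j : Option G.edgeSet) : IsProbabilityMeasure (incrLaw G θ j) := by
  cases j with
  | none => exact bern_prob (1 / 2) ⟨by norm_num, by norm_num⟩
  | some e => exact bern_prob ((1 + θ) / 2) ⟨by linarith [h.1], by linarith [h.2]⟩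

/-- The law of the product of two independent increment fields. -/
theorem incrLaw_mul {V : Type} (G : SimpleGraph V) {θ₁ θ₂ : ℝ}
    (h1 : -1 ≤ θ₁ ∧ θ₁ ≤ 1) (h2 : -1 ≤ θ₂ ∧ θ₂ ≤ 1) (j : Option G.edgeSet) :
    (Measure.infinitePi (fun b : Bool => incrLaw G (bif b then θ₁ else θ₂) j)).map
        (fun c : Bool → Bool => c true == c false)
      = incrLaw G (θ₁ * θ₂) j := by
  cases j with
  | none =>
    have e : (fun b : Bool => incrLaw G (bif b then θ₁ else θ₂) none)
        = fun b : Bool => bern (bif b then (1 / 2 : ℝ) else 1 / 2) := by
      funext b
      cases b <;> rfl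
    rw [e, bern_mul ⟨by norm_num, by norm_num⟩ ⟨by norm_num, by norm_num⟩]
    show bern _ = bern (1 / 2)
    congr 1
    norm_num
  | some e =>
    have e' : (fun b : Bool => incrLaw G (bif b then θ₁ else θ₂) (some e))
        = fun b : Bool => bern (bif b then (1 + θ₁) / 2 else (1 + θ₂) / 2) := by
      funext b
      cases b <;> rfl
    rw [e', bern_mul ⟨by linarith [h1.1], by linarith [h1.2]⟩
      ⟨by linarith [h2.1], by linarith [h2.2]⟩]
    show bern _ = bern ((1 + θ₁ * θ₂) / 2)
    congr 1
    ring

/-- The set of parameters `θ` for which the free Ising measure is a factor of IID is closed under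
multiplication: the site-wise product of two independent factor-of-IID free Ising fields. -/
theorem fiid_mul {V : Type} (G : SimpleGraph V) (o : V) {θ₁ θ₂ : ℝ}
    (h1 : -1 ≤ θ₁ ∧ θ₁ ≤ 1) (h2 : -1 ≤ θ₂ ∧ θ₂ ≤ 1) {ν₁ ν₂ : Measure (V → Bool)}
    (hI1 : IsFreeIsing G o θ₁ ν₁) (hF1 : IsFIID G ν₁)
    (hI2 : IsFreeIsing G o θ₂ ν₂) (hF2 : IsFIID G ν₂) :
    ∃ ν, IsFreeIsing G o (θ₁ * θ₂) ν ∧ IsFIID G ν := by
  obtain ⟨Ψ₁, hΨ₁m, hΨ₁e, rfl⟩ := hF1
  obtain ⟨Ψ₂, hΨ₂m, hΨ₂e, rfl⟩ := hF2
  obtain ⟨s, hsm, hs⟩ := exists_split
  have hS := split_law (V := V) hsm hs
  let S : (V → unitInterval) → Bool → V → unitInterval := fun U b v => s (U v) b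
  have hSm : Measurable S := measurable_pi_lambda _ (fun b => measurable_pi_lambda _ (fun v =>
    (measurable_pi_apply b).comp (hsm.comp (measurable_pi_apply v))))
  have hSb : ∀ b, (labelLaw V).map (fun U => S U b) = labelLaw V := by
    intro b
    have e : (fun U => S U b) = (fun w : Bool → V → unitInterval => w b) ∘ S := rfl
    rw [e, ← Measure.map_map (measurable_pi_apply b) hSm]
    show ((labelLaw V).map (fun (U : V → unitInterval) (b : Bool) (v : V) => s (U v) b)).map
      (fun w : Bool → V → unitInterval => w b) = labelLaw V
    rw [hS]
    exact Measure.infinitePi_map_eval (fun _ : Bool => labelLaw V) b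
  let Ψ : Bool → (V → unitInterval) → (V → Bool) := fun b => bif b then Ψ₁ else Ψ₂
  have hΨm : ∀ b, Measurable (Ψ b) := by
    intro b
    cases b
    · exact hΨ₂m
    · exact hΨ₁m
  let Φ : (V → unitInterval) → (V → Bool) := fun U v => Ψ₁ (S U true) v == Ψ₂ (S U false) v
  have hΦm : Measurable Φ := by
    refine measurable_pi_lambda _ (fun v => ?_)
    have h : Measurable (fun U : V → unitInterval => (Ψ₁ (S U true) v, Ψ₂ (S U false) v)) :=
      ((measurable_pi_apply v).comp (hΨ₁m.comp ((measurable_pi_apply true).comp hSm))).prodMk
        ((measurable_pi_apply v).comp (hΨ₂m.comp ((measurable_pi_apply false).comp hSm)))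
    exact (Measurable.of_discrete (f := fun p : Bool × Bool => p.1 == p.2)).comp h
  refine ⟨(labelLaw V).map Φ, ?_, Φ, hΦm, ?_, rfl⟩
  · -- the law of the increments
    have hp : ∀ (b : Bool) (j : Option G.edgeSet),
        IsProbabilityMeasure (incrLaw G (bif b then θ₁ else θ₂) j) := by
      intro b j
      cases b
      · exact incrLaw_prob G h2 j
      · exact incrLaw_prob G h1 j
    let W : (V → unitInterval) → Bool → Option G.edgeSet → Bool :=
      fun U b => increments G o (Ψ b (S U b))
    have hWm : Measurable (fun (u : Bool → V → unitInterval) (b : Bool) =>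
        increments G o (Ψ b (u b))) :=
      measurable_pi_lambda _ (fun b => (measurable_increments G o).comp
        ((hΨm b).comp (measurable_pi_apply b)))
    have hW : (labelLaw V).map W = Measure.infinitePi (fun b : Bool =>
        Measure.infinitePi (fun j => incrLaw G (bif b then θ₁ else θ₂) j)) := by
      have e : W = (fun (u : Bool → V → unitInterval) (b : Bool) =>
          increments G o (Ψ b (u b))) ∘ S := rfl
      rw [e, ← Measure.map_map hWm hSm]
      show ((labelLaw V).map (fun (U : V → unitInterval) (b : Bool) (v : V) => s (U v) b)).map
        (fun (u : Bool → V → unitInterval) (b : Bool) => increments G o (Ψ b (u b))) = _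
      rw [hS]
      have hmp := Measure.infinitePi_map_pi (fun _ : Bool => labelLaw V)
        (f := fun (b : Bool) (u : V → unitInterval) => increments G o (Ψ b u))
        (fun b => (measurable_increments G o).comp (hΨm b))
      refine hmp.trans ?_
      congr 1
      funext b
      cases b
      · have := hI2
        unfold IsFreeIsing at this
        rw [Measure.map_map (measurable_increments G o) hΨ₂m] at this
        exact this
      · have := hI1
        unfold IsFreeIsing at this
        rw [Measure.map_map (measurable_increments G o) hΨ₁m] at this
        exact this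
    have hflip := infinitePi_map_flip
      (fun (b : Bool) (j : Option G.edgeSet) => incrLaw G (bif b then θ₁ else θ₂) j)
    have hF : Measurable (fun (c : Option G.edgeSet → Bool → Bool) (j : Option G.edgeSet) =>
        c j true == c j false) :=
      measurable_pi_lambda _ (fun j =>
        (Measurable.of_discrete (f := fun c : Bool → Bool => c true == c false)).comp
          (measurable_pi_apply j))
    have hfl : Measurable (fun (w : Bool → Option G.edgeSet → Bool) (j : Option G.edgeSet)
        (b : Bool) => w b j) :=
      measurable_pi_lambda _ (fun j => measurable_pi_lambda _ (fun b =>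
        (measurable_pi_apply j).comp (measurable_pi_apply b)))
    have hWm' : Measurable W := hWm.comp hSm
    have hcomp : increments G o ∘ Φ
        = (fun (c : Option G.edgeSet → Bool → Bool) (j : Option G.edgeSet) =>
            c j true == c j false) ∘
          ((fun (w : Bool → Option G.edgeSet → Bool) (j : Option G.edgeSet) (b : Bool) => w b j)
            ∘ W) := by
      funext U j
      exact increments_mul G o (Ψ₁ (S U true)) (Ψ₂ (S U false)) j
    have hmp2 := Measure.infinitePi_map_pi
      (fun j : Option G.edgeSet =>
        Measure.infinitePi fun b : Bool => incrLaw G (bif b then θ₁ else θ₂) j)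
      (f := fun (_ : Option G.edgeSet) (c : Bool → Bool) => c true == c false)
      (fun _ => Measurable.of_discrete)
    unfold IsFreeIsing
    rw [Measure.map_map (measurable_increments G o) hΦm, hcomp,
      ← Measure.map_map hF (hfl.comp hWm'), ← Measure.map_map hfl hWm', hW, hflip]
    refine hmp2.trans ?_
    congr 1
    funext j
    exact incrLaw_mul G h1 h2 j
  · -- equivariance
    intro g
    have e1 : ∀ᵐ U ∂(labelLaw V),
        Ψ₁ (fun v => S U true (g.symm v)) = fun v => Ψ₁ (S U true) (g.symm v) := by
      have h := hΨ₁e g
      rw [← hSb true] at h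
      exact ae_of_ae_map ((measurable_pi_apply true).comp hSm).aemeasurable h
    have e2 : ∀ᵐ U ∂(labelLaw V),
        Ψ₂ (fun v => S U false (g.symm v)) = fun v => Ψ₂ (S U false) (g.symm v) := by
      have h := hΨ₂e g
      rw [← hSb false] at h
      exact ae_of_ae_map ((measurable_pi_apply false).comp hSm).aemeasurable h
    filter_upwards [e1, e2] with U ha hb
    funext v
    show (Ψ₁ (fun w => S U true (g.symm w)) v == Ψ₂ (fun w => S U false (g.symm w)) v)
      = (Ψ₁ (S U true) (g.symm v) == Ψ₂ (S U false) (g.symm v))
    rw [ha, hb]

theorem bool_step {a a' b b' : Bool} (h : a = a') (h2 : (a == b) = (a' == b')) : b = b' := by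
  cases a <;> cases a' <;> cases b <;> cases b' <;> simp_all

/-- On a connected graph a spin configuration is determined by the root spin and the agreement
indicators of the edges. -/
theorem increments_injective {V : Type} (G : SimpleGraph V) (hG : G.Connected) (o : V) :
    Function.Injective (increments G o) := by
  intro σ ξ h
  have h0 : σ o = ξ o := congrFun h none
  have hadj : ∀ u v, G.Adj u v → (σ u == σ v) = (ξ u == ξ v) := by
    intro u v huv
    exact congrFun h (some ⟨s(u, v), (SimpleGraph.mem_edgeSet G).mpr huv⟩)
  have key : ∀ (u v : V) (p : G.Walk u v), σ u = ξ u → σ v = ξ v := by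
    intro u v p
    induction p with
    | nil => exact id
    | @cons u w v huw p ih =>
      intro hu
      exact ih (bool_step hu (hadj u w huw))
  funext v
  obtain ⟨p⟩ := hG.preconnected o v
  exact key o v p h0

/-- On a countable connected graph there is at most one free Ising measure with a given
parameter. -/
theorem freeIsing_unique {V : Type} [Countable V] (G : SimpleGraph V) (hG : G.Connected) (o : V)
    (θ : ℝ) {ν ν' : Measure (V → Bool)} (h : IsFreeIsing G o θ ν) (h' : IsFreeIsing G o θ ν') :
    ν = ν' := by
  have hemb : MeasurableEmbedding (increments G o) :=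
    (measurable_increments G o).measurableEmbedding (increments_injective G hG o)
  rw [← hemb.comap_map ν, ← hemb.comap_map ν']
  unfold IsFreeIsing at h h'
  rw [h, h']

end Vale.Agent.Lib.P161
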