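import Mathlib

open MeasureTheory

namespace Vale.Agent.Lib.P161

/-- Spins are Booleans: `true` stands for `+1` and `false` for `-1`.
`bern p` is the law on spins that gives mass `p` to `true` and mass `1 - p` to `false`. -/
noncomputable def bern (p : ℝ) : Measure Bool :=
  ENNReal.ofReal p • Measure.dirac true + ENNReal.ofReal (1 - p) • Measure.dirac false

/-- Whether the two ends of the unordered pair `e` carry the same spin under `σ`. -/
def agree {V : Type} (σ : V → Bool) (e : Sym2 V) : Bool :=
  Sym2.lift ⟨fun u v => σ u == σ v, fun _ _ => Bool.beq_comm⟩ e

/-- The spin at the root `o` (index `none`) together with, for every edge of `G`, whether its two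
ends agree (index `some e`). -/
def increments {V : Type} (G : SimpleGraph V) (o : V) (σ : V → Bool) : Option G.edgeSet → Bool
  | none => σ o
  | some e => agree σ e.1

/-- The laws of the coordinates of `increments` under the free Ising measure with parameter
`θ = tanh β`: the root spin is uniform and the two ends of an edge agree with probability
one half of `1 + θ`. -/
noncomputable def incrLaw {V : Type} (G : SimpleGraph V) (θ : ℝ) : Option G.edgeSet → Measure Bool
  | none => bern (1 / 2)
  | some _ => bern ((1 + θ) / 2)

/-- `ν` is the free Ising measure with parameter `θ = tanh β` on the tree `G`, built from the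
vertex `o`: under `ν` the spin at `o` and the agreement indicators of all the edges are
independent (their joint law is the product measure), the spin at `o` is uniform, and the two ends
of each edge agree with probability one half of `1 + θ`. -/
def IsFreeIsing {V : Type} (G : SimpleGraph V) (o : V) (θ : ℝ) (ν : Measure (V → Bool)) : Prop :=
  ν.map (increments G o) = Measure.infinitePi (incrLaw G θ)

/-- The law of independent labels, one for each vertex, each uniform on `[0,1]`. -/
noncomputable def labelLaw (V : Type) : Measure (V → unitInterval) :=
  Measure.infinitePi (fun _ : V => (volume : Measure unitInterval))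

instance labelLaw_prob (V : Type) : IsProbabilityMeasure (labelLaw V) := by
  unfold labelLaw
  infer_instance

/-- `ν` is a factor of IID on the graph `G`: it is the law of `Φ U` for independent uniform labels
`U` and a measurable map `Φ` that commutes, almost surely, with every automorphism `a` of `G`
acting on configurations by precomposition with the inverse of `a`. -/
def IsFIID {V : Type} (G : SimpleGraph V) (ν : Measure (V → Bool)) : Prop :=
  ∃ Φ : (V → unitInterval) → (V → Bool), Measurable Φ ∧
    (∀ a : SimpleGraph.Iso G G, ∀ᵐ U ∂(labelLaw V),
      Φ (fun v => U (a.symm v)) = fun v => Φ U (a.symm v)) ∧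
    ν = (labelLaw V).map Φ

theorem measurable_agree {V : Type} (e : Sym2 V) : Measurable (fun σ : V → Bool => agree σ e) := by
  induction e using Sym2.ind with
  | _ u v =>
    show Measurable (fun σ : V → Bool => σ u == σ v)
    have h : Measurable (fun σ : V → Bool => (σ u, σ v)) :=
      (measurable_pi_apply u).prodMk (measurable_pi_apply v)
    exact (Measurable.of_discrete (f := fun p : Bool × Bool => p.1 == p.2)).comp h

theorem measurable_increments {V : Type} (G : SimpleGraph V) (o : V) :
    Measurable (increments G o) := by
  refine measurable_pi_lambda _ (fun j => ?_)
  cases j with
  | none => exact measurable_pi_apply o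
  | some e => exact measurable_agree e.1

theorem bern_prob (p : ℝ) (h : 0 ≤ p ∧ p ≤ 1) : IsProbabilityMeasure (bern p) := by
  constructor
  unfold bern
  simp only [Measure.coe_add, Measure.coe_smul, Pi.add_apply, Pi.smul_apply, measure_univ,
    smul_eq_mul, mul_one]
  rw [← ENNReal.ofReal_add h.1 (by linarith)]
  simp

end Vale.Agent.Lib.P161
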